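import Vale.Agent.P198.P0.Main
import Vale.Agent.P198.I.Main
import Vale.Agent.P198.A.Main
import Vale.Agent.P198.B.Main
import Vale.Agent.P198.C1.Main
import Vale.Agent.P198.C2.Main

open Vale.Agent.P198

universe u

/-- Cannon's conjecture. -/
theorem Vale.Agent.Results.P198.Cannon.result (G : Type u) [Group G] (S : Finset G)
    (hS : Subgroup.closure (S : Set G) = ⊤) (δ : ℕ) (hδ : Thin S δ)
    (h : Nonempty (Bdry S ≃ₜ Metric.sphere (0 : EuclideanSpace ℝ (Fin 3)) 1)) :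
    ∃ ρ : G →* Equiv.Perm H3,
      (∀ (g : G) (x y : H3), hdist (ρ g x) (ρ g y) = hdist x y) ∧
      (∀ K : Set H3, IsCompact K → {g : G | (ρ g '' K ∩ K).Nonempty}.Finite) ∧
      (∃ K : Set H3, IsCompact K ∧ ∀ x : H3, ∃ g : G, ∃ y ∈ K, ρ g y = x) ∧
      (ρ.ker : Set G).Finite := by
  obtain ⟨Z, i1, i2, i3, ⟨D⟩⟩ := part0 G S δ hS hδ h
  obtain ⟨E⟩ := geo D
  obtain ⟨c, a11, a12, a22, h1, h2, hW⟩ := partIIb D E (partIIa D E (partI D))
  obtain ⟨c', hc'⟩ := partIIc1 D c a11 a12 a22 h1 h2 hW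
  exact partIIc2 D c' hc'
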